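import Vale.Agent.Lib.P345.Core

/-!
# The atomic sets and the induction
-/

namespace Vale.Agent.Lib.P345

open MvPolynomial

variable {n : ℕ}

theorem sfg_nonneg (p : MvPolynomial (Fin n) ℤ) :
    SFG {a : Fin n → ℕ | 0 ≤ eval (fun i => (a i : ℤ)) p} := by
  refine ⟨Unit, inferInstance, rename Sum.inl p - X (Sum.inr ()), ?_, ?_⟩
  · intro a
    simp only [Set.mem_ofPred_eq, ev_sub, ev_rename_inl, ev_X_inr]
    constructor
    · intro h
      refine ⟨fun _ => (eval (fun i => (a i : ℤ)) p).toNat, ?_⟩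
      rw [Int.toNat_of_nonneg h]; ring
    · rintro ⟨w, hw⟩
      have : eval (fun i => (a i : ℤ)) p = (w () : ℤ) := by linarith
      rw [this]; positivity
  · intro a w w' hw hw'
    rw [ev_sub, ev_rename_inl, ev_X_inr] at hw hw'
    funext x
    cases x
    have : (w () : ℤ) = (w' () : ℤ) := by linarith
    exact_mod_cast this

theorem three_sq_eq_zero {x y z : ℤ} : x ^ 2 + y ^ 2 + z ^ 2 = 0 ↔ x = 0 ∧ y = 0 ∧ z = 0 := by
  constructor
  · intro h
    refine ⟨?_, ?_, ?_⟩ <;> nlinarith [sq_nonneg x, sq_nonneg y, sq_nonneg z]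
  · rintro ⟨rfl, rfl, rfl⟩; ring

theorem split_unique {x y x' y' : ℕ} (h : (x : ℤ) * y = 0) (h' : (x' : ℤ) * y' = 0)
    (e : (x : ℤ) - y = (x' : ℤ) - y') : x = x' ∧ y = y' := by
  have h1 : x = 0 ∨ y = 0 := by
    rcases mul_eq_zero.mp h with h | h
    · left; exact_mod_cast h
    · right; exact_mod_cast h
  have h2 : x' = 0 ∨ y' = 0 := by
    rcases mul_eq_zero.mp h' with h | h
    · left; exact_mod_cast h
    · right; exact_mod_cast h
  omega

theorem split_exists (q : ℤ) : (q.toNat : ℤ) * ((-q).toNat : ℤ) = 0 ∧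
    (q.toNat : ℤ) - ((-q).toNat : ℤ) = q := by
  rcases le_total 0 q with h | h
  · have h2 : (-q).toNat = 0 := by omega
    rw [h2]; constructor
    · simp
    · omega
  · have h2 : q.toNat = 0 := by omega
    rw [h2]; constructor
    · simp
    · omega

theorem sfg_dvd (k : ℤ) (hk : 0 < k) (p : MvPolynomial (Fin n) ℤ) :
    SFG {a : Fin n → ℕ | k ∣ eval (fun i => (a i : ℤ)) p} := by
  obtain ⟨P, key⟩ : ∃ P : MvPolynomial (Fin n ⊕ Bool) ℤ, ∀ (a : Fin n → ℕ) (w : Bool → ℕ),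
      ev P a w = 0 ↔
      (eval (fun i => (a i : ℤ)) p = k * ((w true : ℤ) - (w false : ℤ)) ∧
        (w true : ℤ) * (w false : ℤ) = 0) := by
    refine ⟨(rename Sum.inl p - C k * (X (Sum.inr true) - X (Sum.inr false))) ^ 2
        + (X (Sum.inr true) * X (Sum.inr false)) ^ 2, ?_⟩
    intro a w
    simp only [ev_add, ev_sub, ev_mul, ev_pow, ev_C, ev_X_inr, ev_rename_inl]
    rw [sq_add_sq_eq_zero, sub_eq_zero]
  refine ⟨Bool, inferInstance, P, ?_, ?_⟩
  · intro a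
    simp only [Set.mem_ofPred_eq]
    constructor
    · rintro ⟨q, hq⟩
      refine ⟨fun b => if b then q.toNat else (-q).toNat, (key a _).mpr ?_⟩
      obtain ⟨h1, h2⟩ := split_exists q
      simp only [if_true, Bool.false_eq_true, if_false]
      exact ⟨by rw [h2]; exact hq, h1⟩
    · rintro ⟨w, hw⟩
      obtain ⟨h1, -⟩ := (key a w).mp hw
      exact ⟨_, h1⟩
  · intro a w w' hw hw'
    obtain ⟨h1, h2⟩ := (key a w).mp hw
    obtain ⟨h1', h2'⟩ := (key a w').mp hw'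
    have e : (w true : ℤ) - (w false : ℤ) = (w' true : ℤ) - (w' false : ℤ) := by
      have : k * ((w true : ℤ) - (w false : ℤ)) = k * ((w' true : ℤ) - (w' false : ℤ)) := by
        rw [← h1, ← h1']
      exact mul_left_cancel₀ (ne_of_gt hk) this
    obtain ⟨e1, e2⟩ := split_unique h2 h2' e
    funext b
    cases b
    · exact e2
    · exact e1

theorem sfg_ndvd (k : ℤ) (hk : 0 < k) (p : MvPolynomial (Fin n) ℤ) :
    SFG {a : Fin n → ℕ | ¬ k ∣ eval (fun i => (a i : ℤ)) p} := by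
  obtain ⟨P, key⟩ : ∃ P : MvPolynomial (Fin n ⊕ Fin 4) ℤ, ∀ (a : Fin n → ℕ) (w : Fin 4 → ℕ),
      ev P a w = 0 ↔
      (eval (fun i => (a i : ℤ)) p = k * ((w 0 : ℤ) - (w 1 : ℤ)) + 1 + (w 2 : ℤ) ∧
        (w 0 : ℤ) * (w 1 : ℤ) = 0 ∧ (w 2 : ℤ) + (w 3 : ℤ) = k - 2) := by
    refine ⟨(rename Sum.inl p - C k * (X (Sum.inr 0) - X (Sum.inr 1)) - C 1 - X (Sum.inr 2)) ^ 2
        + (X (Sum.inr 0) * X (Sum.inr 1)) ^ 2
        + (X (Sum.inr 2) + X (Sum.inr 3) - C (k - 2)) ^ 2, ?_⟩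
    intro a w
    simp only [ev_add, ev_sub, ev_mul, ev_pow, ev_C, ev_X_inr, ev_rename_inl]
    rw [three_sq_eq_zero]
    constructor
    · rintro ⟨h1, h2, h3⟩
      exact ⟨by linarith, h2, by linarith⟩
    · rintro ⟨h1, h2, h3⟩
      exact ⟨by linarith, h2, by linarith⟩
  have divmod : ∀ (a : Fin n → ℕ) (w : Fin 4 → ℕ),
      (eval (fun i => (a i : ℤ)) p = k * ((w 0 : ℤ) - (w 1 : ℤ)) + 1 + (w 2 : ℤ) ∧
        (w 0 : ℤ) * (w 1 : ℤ) = 0 ∧ (w 2 : ℤ) + (w 3 : ℤ) = k - 2) →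
      eval (fun i => (a i : ℤ)) p / k = (w 0 : ℤ) - (w 1 : ℤ) ∧
        eval (fun i => (a i : ℤ)) p % k = 1 + (w 2 : ℤ) := by
    rintro a w ⟨h1, h2, h3⟩
    rw [Int.ediv_emod_unique hk]
    refine ⟨by linarith, by positivity, ?_⟩
    have : (0 : ℤ) ≤ (w 3 : ℤ) := by positivity
    linarith
  refine ⟨Fin 4, inferInstance, P, ?_, ?_⟩
  · intro a
    simp only [Set.mem_ofPred_eq]
    constructor
    · intro h
      set v := eval (fun i => (a i : ℤ)) p with hv
      have hr0 : v % k ≠ 0 := fun h0 => h (Int.dvd_of_emod_eq_zero h0)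
      have hr1 : 0 ≤ v % k := Int.emod_nonneg _ (ne_of_gt hk)
      have hr2 : v % k < k := Int.emod_lt_of_pos _ hk
      have hdm : k * (v / k) + v % k = v := Int.mul_ediv_add_emod v k
      obtain ⟨s1, s2⟩ := split_exists (v / k)
      refine ⟨![(v / k).toNat, (-(v / k)).toNat, (v % k - 1).toNat, (k - 1 - v % k).toNat],
        (key a _).mpr ?_⟩
      simp only [Matrix.cons_val_zero, Matrix.cons_val_one, Matrix.cons_val]
      refine ⟨?_, s1, ?_⟩
      · rw [s2]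
        have : ((v % k - 1).toNat : ℤ) = v % k - 1 := Int.toNat_of_nonneg (by omega)
        rw [this]; linarith
      · have e1 : ((v % k - 1).toNat : ℤ) = v % k - 1 := Int.toNat_of_nonneg (by omega)
        have e2 : ((k - 1 - v % k).toNat : ℤ) = k - 1 - v % k := Int.toNat_of_nonneg (by omega)
        rw [e1, e2]; ring
    · rintro ⟨w, hw⟩ hdvd
      obtain ⟨-, hm⟩ := divmod a w ((key a w).mp hw)
      rw [Int.emod_eq_zero_of_dvd hdvd] at hm
      have : (0 : ℤ) ≤ (w 2 : ℤ) := by positivity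
      linarith
  · intro a w w' hw hw'
    have hk1 := (key a w).mp hw
    have hk2 := (key a w').mp hw'
    obtain ⟨d1, m1⟩ := divmod a w hk1
    obtain ⟨d2, m2⟩ := divmod a w' hk2
    obtain ⟨-, z1, t1⟩ := hk1
    obtain ⟨-, z2, t2⟩ := hk2
    obtain ⟨e0, e1⟩ := split_unique z1 z2 (by rw [← d1, ← d2])
    have e2 : w 2 = w' 2 := by
      have : (w 2 : ℤ) = (w' 2 : ℤ) := by linarith
      exact_mod_cast this
    have e3 : w 3 = w' 3 := by
      have : (w 3 : ℤ) = (w' 3 : ℤ) := by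
        have : (w 2 : ℤ) = (w' 2 : ℤ) := by exact_mod_cast e2
        linarith
      exact_mod_cast this
    funext i
    fin_cases i
    · exact e0
    · exact e1
    · exact e2
    · exact e3

/-- both the set and its complement have single-fold representations -/
def SF2 (S : Set (Fin n → ℕ)) : Prop := SFG S ∧ SFG Sᶜ

theorem SF2.compl {S : Set (Fin n → ℕ)} (h : SF2 S) : SF2 Sᶜ :=
  ⟨h.2, by rw [compl_compl]; exact h.1⟩

theorem SF2.inter {S T : Set (Fin n → ℕ)} (hS : SF2 S) (hT : SF2 T) : SF2 (S ∩ T) := by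
  refine ⟨hS.1.inter hT.1, ?_⟩
  have e : (S ∩ T)ᶜ = Sᶜ ∪ (S ∩ Tᶜ) := by
    ext a
    simp only [Set.mem_compl_iff, Set.mem_inter_iff, Set.mem_union]
    tauto
  rw [e]
  refine SFG.union hS.2 (hS.1.inter hT.2) ?_
  rw [Set.disjoint_left]
  rintro a h1 ⟨h2, -⟩
  exact h1 h2

theorem sf2_nonneg (p : MvPolynomial (Fin n) ℤ) :
    SF2 {a : Fin n → ℕ | 0 ≤ eval (fun i => (a i : ℤ)) p} := by
  refine ⟨sfg_nonneg p, ?_⟩
  have e : {a : Fin n → ℕ | 0 ≤ eval (fun i => (a i : ℤ)) p}ᶜ =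
      {a : Fin n → ℕ | 0 ≤ eval (fun i => (a i : ℤ)) (-p - C 1)} := by
    ext a
    simp only [Set.mem_compl_iff, Set.mem_ofPred_eq, map_sub, map_neg, eval_C]
    constructor
    · intro h; linarith [Int.lt_iff_add_one_le.mp (not_le.mp h)]
    · intro h h'; linarith
  rw [e]
  exact sfg_nonneg _

theorem sf2_dvd (d : ℤ) (p : MvPolynomial (Fin n) ℤ) :
    SF2 {a : Fin n → ℕ | d ∣ eval (fun i => (a i : ℤ)) p} := by
  rcases eq_or_ne d 0 with rfl | hd
  · have e : {a : Fin n → ℕ | (0 : ℤ) ∣ eval (fun i => (a i : ℤ)) p} =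
        {a : Fin n → ℕ | 0 ≤ eval (fun i => (a i : ℤ)) p} ∩
          {a : Fin n → ℕ | 0 ≤ eval (fun i => (a i : ℤ)) (-p)} := by
      ext a
      simp only [Set.mem_ofPred_eq, Set.mem_inter_iff, zero_dvd_iff, map_neg]
      constructor
      · intro h; rw [h]; simp
      · rintro ⟨h1, h2⟩; linarith
    rw [e]
    exact (sf2_nonneg p).inter (sf2_nonneg (-p))
  · have e : {a : Fin n → ℕ | d ∣ eval (fun i => (a i : ℤ)) p} =
        {a : Fin n → ℕ | |d| ∣ eval (fun i => (a i : ℤ)) p} := by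
      ext a
      simp only [Set.mem_ofPred_eq, abs_dvd]
    rw [e]
    exact ⟨sfg_dvd _ (abs_pos.mpr hd) p, sfg_ndvd _ (abs_pos.mpr hd) p⟩

theorem QF.sf2 {S : Set (Fin n → ℕ)} (h : QF S) : SF2 S := by
  induction h with
  | nonneg p => exact sf2_nonneg p
  | dvd d p => exact sf2_dvd d p
  | compl _ ih => exact ih.compl
  | inter _ _ ih1 ih2 => exact ih1.inter ih2

/-- every quantifier-free set, and its complement, has a single-fold representation -/
theorem QF.singleFold {S : Set (Fin n → ℕ)} (h : QF S) : SingleFold S ∧ SingleFold Sᶜ :=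
  ⟨h.sf2.1.singleFold, h.sf2.2.singleFold⟩

end Vale.Agent.Lib.P345
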