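import Vale.Agent.Lib.P345.Atoms

/-!
# Closure properties of single-fold Diophantine sets

Helper file for problem P345 (second hand-in).
-/

namespace Vale.Agent.Lib.P345

open MvPolynomial

variable {n : ℕ}

theorem SingleFold.sfg {S : Set (Fin n → ℕ)} (h : SingleFold S) : SFG S := by
  obtain ⟨m, P, hP, uP⟩ := h
  exact ⟨Fin m, inferInstance, P, hP, uP⟩

theorem singleFold_inter {S T : Set (Fin n → ℕ)} (hS : SingleFold S) (hT : SingleFold T) :
    SingleFold (S ∩ T) :=
  (hS.sfg.inter hT.sfg).singleFold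

theorem singleFold_union {S T : Set (Fin n → ℕ)} (hS : SingleFold S) (hT : SingleFold T)
    (hd : Disjoint S T) : SingleFold (S ∪ T) :=
  (SFG.union hS.sfg hT.sfg hd).singleFold

theorem singleFold_cases {Q S T : Set (Fin n → ℕ)} (hQ : QF Q) (hS : SingleFold S)
    (hT : SingleFold T) : SingleFold ((Q ∩ S) ∪ (Qᶜ ∩ T)) := by
  have h1 := singleFold_inter hQ.singleFold.1 hS
  have h2 := singleFold_inter hQ.singleFold.2 hT
  refine singleFold_union h1 h2 ?_
  rw [Set.disjoint_left]
  rintro a ⟨hq, -⟩ ⟨hq', -⟩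
  exact hq' hq

/-- the tuple `a` extended by a last entry `b` -/
def ext1 (a : Fin n → ℕ) (b : ℕ) : Fin (n + 1) → ℕ :=
  Fin.lastCases b (fun i => a i)

theorem ext1_castSucc (a : Fin n → ℕ) (b : ℕ) (i : Fin n) : ext1 a b i.castSucc = a i := by
  unfold ext1
  exact Fin.lastCases_castSucc (motive := fun _ => ℕ) i

theorem ext1_last (a : Fin n → ℕ) (b : ℕ) : ext1 a b (Fin.last n) = b := by
  unfold ext1
  exact Fin.lastCases_last (motive := fun _ => ℕ)

theorem ext1_eq (s : Fin (n + 1) → ℕ) (a : Fin n → ℕ) (h : ∀ i : Fin n, s i.castSucc = a i) :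
    ext1 a (s (Fin.last n)) = s := by
  funext x
  refine Fin.lastCases ?_ (fun i => ?_) x
  · rw [ext1_last]
  · rw [ext1_castSucc, h]

/-- Projection along the last coordinate, for a set that is the graph of a partial function of
the other coordinates. -/
theorem SFG.proj {S : Set (Fin (n + 1) → ℕ)} (hS : SFG S)
    (huniq : ∀ s ∈ S, ∀ s' ∈ S, (∀ i : Fin n, s i.castSucc = s' i.castSucc) → s = s') :
    SFG {a : Fin n → ℕ | ∃ s ∈ S, ∀ i : Fin n, s i.castSucc = a i} := by
  obtain ⟨ι, hι, P, hP, uP⟩ := hS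
  let g : Fin (n + 1) ⊕ ι → Fin n ⊕ Option ι :=
    Sum.elim (Fin.lastCases (Sum.inr none) (fun i => Sum.inl i)) (fun j => Sum.inr (some j))
  have key : ∀ (a : Fin n → ℕ) (w : Option ι → ℕ),
      ev (rename g P) a w = ev P (ext1 a (w none)) (fun j => w (some j)) := by
    intro a w
    unfold ev
    rw [eval_rename]
    have e : (Sum.elim (fun i => (a i : ℤ)) (fun j => (w j : ℤ))) ∘ g =
        Sum.elim (fun i => ((ext1 a (w none) i : ℕ) : ℤ)) (fun j => ((w (some j) : ℕ) : ℤ)) := by
      funext x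
      cases x with
      | inl i =>
        refine Fin.lastCases ?_ (fun i => ?_) i
        · simp [g, ext1_last]
        · simp [g, ext1_castSucc]
      | inr j => rfl
    rw [e]
  refine ⟨Option ι, inferInstance, rename g P, ?_, ?_⟩
  · intro a
    constructor
    · rintro ⟨s, hs, hsa⟩
      obtain ⟨w, hw⟩ := (hP s).mp hs
      refine ⟨fun o => Option.elim o (s (Fin.last n)) w, ?_⟩
      rw [key]
      simp only [Option.elim_none, Option.elim_some]
      rw [ext1_eq s a hsa]
      exact hw
    · rintro ⟨w, hw⟩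
      rw [key] at hw
      exact ⟨ext1 a (w none), (hP _).mpr ⟨_, hw⟩, fun i => ext1_castSucc a _ i⟩
  · intro a w w' hw hw'
    rw [key] at hw hw'
    have h1 : ext1 a (w none) ∈ S := (hP _).mpr ⟨_, hw⟩
    have h2 : ext1 a (w' none) ∈ S := (hP _).mpr ⟨_, hw'⟩
    have h3 := huniq _ h1 _ h2 (fun i => by rw [ext1_castSucc, ext1_castSucc])
    have h4 : w none = w' none := by
      have := congrFun h3 (Fin.last n)
      rwa [ext1_last, ext1_last] at this
    rw [← h4] at hw'
    have h5 := uP _ _ _ hw hw'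
    funext o
    cases o with
    | none => exact h4
    | some j => exact congrFun h5 j

theorem singleFold_proj {S : Set (Fin (n + 1) → ℕ)} (hS : SingleFold S)
    (huniq : ∀ s ∈ S, ∀ s' ∈ S, (∀ i : Fin n, s i.castSucc = s' i.castSucc) → s = s') :
    SingleFold {a : Fin n → ℕ | ∃ s ∈ S, ∀ i : Fin n, s i.castSucc = a i} :=
  (SFG.proj hS.sfg huniq).singleFold

end Vale.Agent.Lib.P345
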