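import Vale.Agent.Lib.P345.Defs

/-!
# Boolean combinations of polynomial inequalities and congruences are single-fold
-/

namespace Vale.Agent.Lib.P345

open MvPolynomial

variable {n : ℕ}

/-- the same notion with the witness variables indexed by an arbitrary finite type -/
def SFG (S : Set (Fin n → ℕ)) : Prop :=
  ∃ (ι : Type) (_ : Finite ι) (P : MvPolynomial (Fin n ⊕ ι) ℤ),
    (∀ a, a ∈ S ↔ ∃ w : ι → ℕ, ev P a w = 0) ∧
    ∀ a (w w' : ι → ℕ), ev P a w = 0 → ev P a w' = 0 → w = w'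

theorem ev_rename_map {ι κ : Type} (k : ι → κ) (P : MvPolynomial (Fin n ⊕ ι) ℤ)
    (a : Fin n → ℕ) (w : κ → ℕ) :
    ev (rename (Sum.map id k) P) a w = ev P a (w ∘ k) := by
  unfold ev
  rw [eval_rename]
  have e : (Sum.elim (fun i => (a i : ℤ)) (fun j => (w j : ℤ))) ∘ Sum.map id k =
      Sum.elim (fun i => (a i : ℤ)) (fun j => ((w ∘ k) j : ℤ)) := by
    funext x
    cases x <;> rfl
  rw [e]

theorem ev_rename_inl {ι : Type} (p : MvPolynomial (Fin n) ℤ) (a : Fin n → ℕ) (w : ι → ℕ) :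
    ev (rename Sum.inl p) a w = MvPolynomial.eval (fun i => (a i : ℤ)) p := by
  unfold ev
  rw [eval_rename]
  rfl

theorem ev_X_inr {ι : Type} (j : ι) (a : Fin n → ℕ) (w : ι → ℕ) :
    ev (X (Sum.inr j) : MvPolynomial (Fin n ⊕ ι) ℤ) a w = (w j : ℤ) := by
  unfold ev
  rw [eval_X]
  rfl

theorem ev_add {ι : Type} (P Q : MvPolynomial (Fin n ⊕ ι) ℤ) (a : Fin n → ℕ) (w : ι → ℕ) :
    ev (P + Q) a w = ev P a w + ev Q a w := by
  unfold ev; exact map_add _ _ _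

theorem ev_sub {ι : Type} (P Q : MvPolynomial (Fin n ⊕ ι) ℤ) (a : Fin n → ℕ) (w : ι → ℕ) :
    ev (P - Q) a w = ev P a w - ev Q a w := by
  unfold ev; exact map_sub _ _ _

theorem ev_mul {ι : Type} (P Q : MvPolynomial (Fin n ⊕ ι) ℤ) (a : Fin n → ℕ) (w : ι → ℕ) :
    ev (P * Q) a w = ev P a w * ev Q a w := by
  unfold ev; exact map_mul _ _ _

theorem ev_pow {ι : Type} (P : MvPolynomial (Fin n ⊕ ι) ℤ) (k : ℕ) (a : Fin n → ℕ)
    (w : ι → ℕ) : ev (P ^ k) a w = ev P a w ^ k := by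
  unfold ev; exact map_pow _ _ _

theorem ev_C {ι : Type} (c : ℤ) (a : Fin n → ℕ) (w : ι → ℕ) :
    ev (C c : MvPolynomial (Fin n ⊕ ι) ℤ) a w = c := by
  unfold ev; exact eval_C _

theorem ev_sum {ι κ : Type} (s : Finset κ) (f : κ → MvPolynomial (Fin n ⊕ ι) ℤ)
    (a : Fin n → ℕ) (w : ι → ℕ) : ev (∑ j ∈ s, f j) a w = ∑ j ∈ s, ev (f j) a w := by
  unfold ev; exact map_sum _ _ _

theorem sq_add_sq_eq_zero {x y : ℤ} : x ^ 2 + y ^ 2 = 0 ↔ x = 0 ∧ y = 0 := by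
  constructor
  · intro h
    constructor <;> nlinarith [sq_nonneg x, sq_nonneg y]
  · rintro ⟨rfl, rfl⟩; ring

theorem sq_add_sum_eq_zero {κ : Type} [Fintype κ] (x : ℤ) (f : κ → ℕ) :
    x ^ 2 + ∑ j : κ, (f j : ℤ) ^ 2 = 0 ↔ x = 0 ∧ ∀ j, f j = 0 := by
  have h1 : 0 ≤ ∑ j : κ, (f j : ℤ) ^ 2 := Finset.sum_nonneg fun j _ => sq_nonneg _
  rw [add_eq_zero_iff_of_nonneg (sq_nonneg x) h1,
    Finset.sum_eq_zero_iff_of_nonneg (fun j _ => sq_nonneg _)]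
  constructor
  · rintro ⟨h2, h3⟩
    refine ⟨by simpa using h2, fun j => ?_⟩
    have := h3 j (Finset.mem_univ j)
    simpa using this
  · rintro ⟨h2, h3⟩
    refine ⟨by simp [h2], fun j _ => by simp [h3 j]⟩

/-- passing from an arbitrary finite index type to an initial segment of the naturals -/
theorem SFG.singleFold {S : Set (Fin n → ℕ)} (h : SFG S) : SingleFold S := by
  obtain ⟨ι, hι, P, hP, uP⟩ := h
  let e : ι ≃ Fin (Nat.card ι) := Finite.equivFin ι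
  refine ⟨Nat.card ι, rename (Sum.map id e) P, ?_, ?_⟩
  · intro a
    rw [hP a]
    constructor
    · rintro ⟨w, hw⟩
      refine ⟨w ∘ e.symm, ?_⟩
      rw [ev_rename_map]
      have : (w ∘ e.symm) ∘ e = w := by
        funext x; simp
      rw [this]; exact hw
    · rintro ⟨w, hw⟩
      rw [ev_rename_map] at hw
      exact ⟨w ∘ e, hw⟩
  · intro a w w' hw hw'
    rw [ev_rename_map] at hw hw'
    have h := uP a _ _ hw hw'
    funext x
    have := congrFun h (e.symm x)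
    simpa using this

theorem SFG.inter {S T : Set (Fin n → ℕ)} (hS : SFG S) (hT : SFG T) : SFG (S ∩ T) := by
  obtain ⟨ι, hι, P, hP, uP⟩ := hS
  obtain ⟨κ, hκ, Q, hQ, uQ⟩ := hT
  have key : ∀ (a : Fin n → ℕ) (w : ι ⊕ κ → ℕ),
      ev (rename (Sum.map id Sum.inl) P ^ 2 + rename (Sum.map id Sum.inr) Q ^ 2) a w = 0 ↔
        ev P a (w ∘ Sum.inl) = 0 ∧ ev Q a (w ∘ Sum.inr) = 0 := by
    intro a w
    rw [ev_add, ev_pow, ev_pow, ev_rename_map, ev_rename_map]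
    exact sq_add_sq_eq_zero
  refine ⟨ι ⊕ κ, inferInstance,
    rename (Sum.map id Sum.inl) P ^ 2 + rename (Sum.map id Sum.inr) Q ^ 2, ?_, ?_⟩
  · intro a
    constructor
    · rintro ⟨h1, h2⟩
      obtain ⟨w1, hw1⟩ := (hP a).mp h1
      obtain ⟨w2, hw2⟩ := (hQ a).mp h2
      exact ⟨Sum.elim w1 w2, (key a _).mpr ⟨hw1, hw2⟩⟩
    · rintro ⟨w, hw⟩
      obtain ⟨h1, h2⟩ := (key a w).mp hw
      exact ⟨(hP a).mpr ⟨_, h1⟩, (hQ a).mpr ⟨_, h2⟩⟩
  · intro a w w' hw hw'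
    obtain ⟨h1, h2⟩ := (key a w).mp hw
    obtain ⟨h1', h2'⟩ := (key a w').mp hw'
    have e1 := uP a _ _ h1 h1'
    have e2 := uQ a _ _ h2 h2'
    funext x
    cases x with
    | inl i => exact congrFun e1 i
    | inr j => exact congrFun e2 j

theorem SFG.union {S T : Set (Fin n → ℕ)} (hS : SFG S) (hT : SFG T) (hd : Disjoint S T) :
    SFG (S ∪ T) := by
  classical
  obtain ⟨ι, hι, P, hP, uP⟩ := hS
  obtain ⟨κ, hκ, Q, hQ, uQ⟩ := hT
  have : Fintype ι := Fintype.ofFinite ι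
  have : Fintype κ := Fintype.ofFinite κ
  let R : MvPolynomial (Fin n ⊕ (ι ⊕ κ)) ℤ :=
    (rename (Sum.map id Sum.inl) P ^ 2 + ∑ j : κ, X (Sum.inr (Sum.inr j)) ^ 2) *
      (rename (Sum.map id Sum.inr) Q ^ 2 + ∑ i : ι, X (Sum.inr (Sum.inl i)) ^ 2)
  have key : ∀ (a : Fin n → ℕ) (w : ι ⊕ κ → ℕ), ev R a w = 0 ↔
      (ev P a (w ∘ Sum.inl) = 0 ∧ ∀ j, w (Sum.inr j) = 0) ∨
        (ev Q a (w ∘ Sum.inr) = 0 ∧ ∀ i, w (Sum.inl i) = 0) := by
    intro a w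
    show ev ((rename (Sum.map id Sum.inl) P ^ 2 + ∑ j : κ, X (Sum.inr (Sum.inr j)) ^ 2) *
      (rename (Sum.map id Sum.inr) Q ^ 2 + ∑ i : ι, X (Sum.inr (Sum.inl i)) ^ 2)) a w = 0 ↔ _
    rw [ev_mul, ev_add, ev_add, ev_pow, ev_pow, ev_rename_map, ev_rename_map, ev_sum, ev_sum,
      mul_eq_zero]
    have e1 : ∀ j : κ, ev (X (Sum.inr (Sum.inr j)) ^ 2 : MvPolynomial (Fin n ⊕ (ι ⊕ κ)) ℤ) a w
        = ((w (Sum.inr j) : ℕ) : ℤ) ^ 2 := fun j => by rw [ev_pow, ev_X_inr]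
    have e2 : ∀ i : ι, ev (X (Sum.inr (Sum.inl i)) ^ 2 : MvPolynomial (Fin n ⊕ (ι ⊕ κ)) ℤ) a w
        = ((w (Sum.inl i) : ℕ) : ℤ) ^ 2 := fun i => by rw [ev_pow, ev_X_inr]
    rw [Finset.sum_congr rfl (fun j _ => e1 j), Finset.sum_congr rfl (fun i _ => e2 i),
      sq_add_sum_eq_zero, sq_add_sum_eq_zero]
  refine ⟨ι ⊕ κ, inferInstance, R, ?_, ?_⟩
  · intro a
    constructor
    · rintro (h1 | h2)
      · obtain ⟨w1, hw1⟩ := (hP a).mp h1
        exact ⟨Sum.elim w1 (fun _ => 0), (key a _).mpr (Or.inl ⟨hw1, fun j => rfl⟩)⟩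
      · obtain ⟨w2, hw2⟩ := (hQ a).mp h2
        exact ⟨Sum.elim (fun _ => 0) w2, (key a _).mpr (Or.inr ⟨hw2, fun i => rfl⟩)⟩
    · rintro ⟨w, hw⟩
      rcases (key a w).mp hw with ⟨h1, -⟩ | ⟨h2, -⟩
      · exact Or.inl ((hP a).mpr ⟨_, h1⟩)
      · exact Or.inr ((hQ a).mpr ⟨_, h2⟩)
  · intro a w w' hw hw'
    rcases (key a w).mp hw with ⟨h1, z1⟩ | ⟨h2, z2⟩
    · rcases (key a w').mp hw' with ⟨h1', z1'⟩ | ⟨h2', z2'⟩
      · have e1 := uP a _ _ h1 h1'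
        funext x
        cases x with
        | inl i => exact congrFun e1 i
        | inr j => rw [z1 j, z1' j]
      · exact absurd (show a ∈ S ⊓ T from ⟨(hP a).mpr ⟨_, h1⟩, (hQ a).mpr ⟨_, h2'⟩⟩)
          (by rw [disjoint_iff.mp hd]; exact fun h => h)
    · rcases (key a w').mp hw' with ⟨h1', z1'⟩ | ⟨h2', z2'⟩
      · exact absurd (show a ∈ S ⊓ T from ⟨(hP a).mpr ⟨_, h1'⟩, (hQ a).mpr ⟨_, h2⟩⟩)
          (by rw [disjoint_iff.mp hd]; exact fun h => h)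
      · have e2 := uQ a _ _ h2 h2'
        funext x
        cases x with
        | inl i => rw [z2 i, z2' i]
        | inr j => exact congrFun e2 j

end Vale.Agent.Lib.P345
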