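import Mathlib

/-!
# Single-fold Diophantine representations

A set `S` of `n`-tuples of natural numbers has a single-fold Diophantine representation if
there is a polynomial `P` with integer coefficients in the parameters `A_1, ..., A_n` and
finitely many witness variables `W_1, ..., W_m` such that, for every tuple `a` of natural
numbers, `a` belongs to `S` exactly when `P(a, w) = 0` for some tuple `w` of natural numbers,
and such that for every `a` there is at most one such `w`.
-/

namespace Vale.Agent.Lib.P345

/-- the value of a polynomial in the parameters (indexed by `Fin n`) and the witness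
variables (indexed by `ι`) at the natural-number tuples `a` and `w` -/
noncomputable def ev {n : ℕ} {ι : Type} (P : MvPolynomial (Fin n ⊕ ι) ℤ) (a : Fin n → ℕ)
    (w : ι → ℕ) : ℤ :=
  MvPolynomial.eval (Sum.elim (fun i => (a i : ℤ)) (fun j => (w j : ℤ))) P

/-- `S` has a single-fold Diophantine representation: a polynomial `P` with integer
coefficients in `n` parameters and `m` witness variables such that `a ∈ S` exactly when
`P(a, w) = 0` has a solution `w` in natural numbers, and for every `a` there is at most one
such `w`. -/
def SingleFold {n : ℕ} (S : Set (Fin n → ℕ)) : Prop :=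
  ∃ (m : ℕ) (P : MvPolynomial (Fin n ⊕ Fin m) ℤ),
    (∀ a, a ∈ S ↔ ∃ w : Fin m → ℕ, ev P a w = 0) ∧
    ∀ a (w w' : Fin m → ℕ), ev P a w = 0 → ev P a w' = 0 → w = w'

/-- The sets definable without quantifiers: the smallest family of subsets of `ℕ^n` that
contains the sets `{a | 0 ≤ p(a)}` and `{a | d ∣ p(a)}`, for polynomials `p` with integer
coefficients and integers `d`, and is closed under complement and intersection (hence under
all Boolean operations). -/
inductive QF {n : ℕ} : Set (Fin n → ℕ) → Prop
  | nonneg (p : MvPolynomial (Fin n) ℤ) :
      QF {a | 0 ≤ MvPolynomial.eval (fun i => (a i : ℤ)) p}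
  | dvd (d : ℤ) (p : MvPolynomial (Fin n) ℤ) :
      QF {a | d ∣ MvPolynomial.eval (fun i => (a i : ℤ)) p}
  | compl {S : Set (Fin n → ℕ)} : QF S → QF Sᶜ
  | inter {S T : Set (Fin n → ℕ)} : QF S → QF T → QF (S ∩ T)

end Vale.Agent.Lib.P345
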