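import Vale.Agent.Lib.P345.Closure

/-!
# The non-squares have a single-fold Diophantine representation

Helper file for problem P345 (second hand-in).
-/

namespace Vale.Agent.Lib.P345

open MvPolynomial

/-- pairs `(a, w)` with `w ^ 2 < a < (w + 1) ^ 2` -/
def sqGap : Set (Fin 2 → ℕ) := {s | s 1 ^ 2 < s 0 ∧ s 0 < (s 1 + 1) ^ 2}

theorem sqGap_qf : QF sqGap := by
  have e : sqGap =
      {a : Fin 2 → ℕ | 0 ≤ eval (fun i => (a i : ℤ))
        (X 0 - X 1 ^ 2 - C 1 : MvPolynomial (Fin 2) ℤ)} ∩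
      {a : Fin 2 → ℕ | 0 ≤ eval (fun i => (a i : ℤ))
        ((X 1 + C 1) ^ 2 - X 0 - C 1 : MvPolynomial (Fin 2) ℤ)} := by
    ext s
    simp only [sqGap, Set.mem_ofPred_eq, Set.mem_inter_iff, map_sub, map_pow, map_add, eval_X,
      eval_C]
    constructor
    · rintro ⟨h1, h2⟩
      have h1' : ((s 1 : ℕ) : ℤ) ^ 2 < (s 0 : ℤ) := by exact_mod_cast h1
      have h2' : ((s 0 : ℕ) : ℤ) < ((s 1 : ℤ) + 1) ^ 2 := by exact_mod_cast h2
      constructor <;> linarith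
    · rintro ⟨h1, h2⟩
      constructor
      · have : ((s 1 : ℕ) : ℤ) ^ 2 < (s 0 : ℤ) := by linarith
        exact_mod_cast this
      · have : ((s 0 : ℕ) : ℤ) < ((s 1 : ℤ) + 1) ^ 2 := by linarith
        exact_mod_cast this
  rw [e]
  exact QF.inter (QF.nonneg _) (QF.nonneg _)

theorem sqGap_unique (s : Fin 2 → ℕ) (hs : s ∈ sqGap) (s' : Fin 2 → ℕ) (hs' : s' ∈ sqGap)
    (h : ∀ i : Fin 1, s i.castSucc = s' i.castSucc) : s = s' := by
  have h0 : s 0 = s' 0 := h 0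
  obtain ⟨h1, h2⟩ := hs
  obtain ⟨h1', h2'⟩ := hs'
  have hw : s 1 = s' 1 := by
    rcases lt_trichotomy (s 1) (s' 1) with hlt | heq | hgt
    · exfalso
      have : (s 1 + 1) ^ 2 ≤ s' 1 ^ 2 := Nat.pow_le_pow_left hlt 2
      omega
    · exact heq
    · exfalso
      have : (s' 1 + 1) ^ 2 ≤ s 1 ^ 2 := Nat.pow_le_pow_left hgt 2
      omega
  funext i
  fin_cases i
  · exact h0
  · exact hw

theorem nonSquare_eq :
    {a : Fin 1 → ℕ | ¬ ∃ w : ℕ, a 0 = w ^ 2} =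
      {a : Fin 1 → ℕ | ∃ s ∈ sqGap, ∀ i : Fin 1, s i.castSucc = a i} := by
  ext a
  simp only [Set.mem_ofPred_eq]
  constructor
  · intro h
    refine ⟨![a 0, Nat.sqrt (a 0)], ⟨?_, ?_⟩, ?_⟩
    · show Nat.sqrt (a 0) ^ 2 < a 0
      have h1 : Nat.sqrt (a 0) ^ 2 ≤ a 0 := Nat.sqrt_le' (a 0)
      rcases Nat.lt_or_ge (Nat.sqrt (a 0) ^ 2) (a 0) with h2 | h2
      · exact h2
      · exact absurd ⟨Nat.sqrt (a 0), le_antisymm h2 h1⟩ h
    · show a 0 < (Nat.sqrt (a 0) + 1) ^ 2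
      exact Nat.lt_succ_sqrt' (a 0)
    · intro i
      fin_cases i
      rfl
  · rintro ⟨s, ⟨h1, h2⟩, hs⟩ ⟨w, hw⟩
    have h0 : s 0 = a 0 := hs 0
    rw [h0, hw] at h1 h2
    have hlt1 : s 1 < w := lt_of_pow_lt_pow_left₀ 2 (Nat.zero_le _) h1
    have hlt2 : w < s 1 + 1 := lt_of_pow_lt_pow_left₀ 2 (Nat.zero_le _) h2
    omega

/-- The set of natural numbers that are not perfect squares has a single-fold Diophantine
representation. -/
theorem singleFold_nonSquare : SingleFold {a : Fin 1 → ℕ | ¬ ∃ w : ℕ, a 0 = w ^ 2} := by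
  rw [nonSquare_eq]
  exact singleFold_proj sqGap_qf.singleFold.1 sqGap_unique

end Vale.Agent.Lib.P345
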